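import Vale.Agent.P154.D5.K2.Data
import Vale.Agent.P154.ApxLemma

set_option maxRecDepth 100000

namespace Vale.Agent.P154.D5.K2

open PolyR Cert InT OutT

/-- The quotient polynomial for `j = 1`. -/
noncomputable def S1 (u : ℝ) : ℝ :=
  (-5 / 2097152 : ℝ) * u ^ 0 + (-609 / 8388608 : ℝ) * u ^ 1 + (3009 / 8388608 : ℝ) * u ^ 2 + (16551 / 4194304 : ℝ) * u ^ 3 + (-48431 / 4194304 : ℝ) * u ^ 4 + (-839753 / 16777216 : ℝ) * u ^ 5 + (2453777 / 16777216 : ℝ) * u ^ 6 + (2241731 / 16777216 : ℝ) * u ^ 7 + (-10403329 / 16777216 : ℝ) * u ^ 8 + (3586477 / 8388608 : ℝ) * u ^ 9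

/-- Certificate polynomial. -/
def lpu1 : List ITm := [⟨(-225007534027099609375000000000000000000000000000000000000000),0,0⟩,⟨(-1729259852242469787597656250000000000000000000000000000000000),1,0⟩,⟨5617635538514551391601562500000000000000000000000000000000000,2,0⟩,⟨43233585362294890636551269531250000000000000000000000000000000,3,0⟩,⟨(-88502613913613862523476448521679687500000000000000000000000000),4,0⟩,⟨(-268386014336851472803722566392578966386718750000000000000000000),5,0⟩,⟨548629372499272274298442156394357037949558382812500000000000000,6,0⟩,⟨350641332626730720221502862670164475411385239312240625000000000,7,0⟩,⟨(-1138380874188474719715582219750107582025725407757477784161250000),8,0⟩,⟨549096847311325181674441245593071025049033333315571968775859811,9,0⟩]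

/-- Certificate tree. -/
def tpu1 : OutT := (A (A (A (O l) (A (O l) (A (O l) (O l)))) (A (A (A (A (O l) (O l)) (A (O l) (A (O l) (O l)))) (A (A (A (O l) (O l)) (A (A (O l) (O l)) (A (O l) (O l)))) (A (A (A (O l) (O l)) (A (O l) (O l))) (A (A (O l) (O l)) (O l))))) (A (A (A (A (O l) (O l)) (A (O l) (O l))) (A (A (O l) (O l)) (O l))) (A (A (O l) (O l)) (A (O l) (O l)))))) (A (A (A (A (A (O l) (O l)) (A (O l) (O l))) (A (A (O l) (O l)) (A (O l) (O l)))) (A (A (A (O l) (A (O l) (O l))) (A (A (O l) (O l)) (A (O l) (O l)))) (A (A (A (O l) (O l)) (A (O l) (O l))) (A (A (A (O l) (O l)) (A (O l) (O l))) (A (A (O l) (O l)) (A (O l) (O l))))))) (A (A (A (A (A (A (O l) (O l)) (A (O l) (O l))) (A (A (A (O l) (O l)) (A (O l) (O l))) (A (A (O l) (O l)) (A (O l) (O l))))) (A (A (A (A (O l) (O l)) (A (O l) (O l))) (A (A (A (O l) (O l)) (A (O l) (O l))) (A (A (O l) (O l)) (A (O l) (O l))))) (A (A (A (A (O l) (O l)) (A (O l) (O l))) (A (A (O l) (O l)) (A (O l) (O l)))) (A (A (A (O l) (O l)) (A (O l) (A (O l) (O l)))) (A (A (A (O l) (O l)) (A (O l) (O l))) (A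 (A (O l) (O l)) (A (O l) (O l)))))))) (A (A (A (A (A (A (A (O l) (O l)) (O l)) (A (O l) (O l))) (A (A (O l) (O l)) (A (O l) (O l)))) (A (A (A (O l) (O l)) (A (O l) (O l))) (A (A (O l) (O l)) (A (O l) (O l))))) (A (A (A (A (O l) (O l)) (A (O l) (O l))) (A (A (O l) (O l)) (O l))) (A (A (O l) (O l)) (A (O l) (O l))))) (A (A (A (A (O l) (O l)) (A (O l) (O l))) (A (A (O l) (O l)) (A (O l) (O l)))) (A (A (A (O l) (O l)) (A (O l) (O l))) (A (O l) (O l)))))) (A (A (A (A (A (O l) (O l)) (A (O l) (O l))) (A (A (O l) (O l)) (A (O l) (O l)))) (A (A (A (O l) (O l)) (A (O l) (O l))) (A (A (O l) (O l)) (A (O l) (O l))))) (A (A (A (A (O l) (O l)) (A (O l) (O l))) (A (A (O l) (O l)) (A (O l) (O l)))) (A (A (A (O l) (O l)) (A (O l) (O l))) (A (A (A (O l) (O l)) (A (O l) (O l))) (A (A (O l) (O l)) (A (A (O l) (O l)) (A (O l) (A (O l) (O l))))))))))))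

theorem hpu1 (x : ℝ) (h0 : 0 ≤ x) (h1 : x ≤ 1) : evalIL lpu1 x 0 ≤ 0 :=
  uni_le 9 65536 lpu1 (by norm_num) (by norm_num) (by decide +kernel)
    (chkOut_sound (uniPb 9 65536 lpu1) tpu1 0 32768 0 32768 (by decide +kernel)) x h0 h1

/-- Certificate polynomial. -/
def lpl1 : List ITm := [⟨(-72419643402099609375000000000000000000000000000000000000000),0,0⟩,⟨1521186580252647399902343750000000000000000000000000000000000,1,0⟩,⟨(-5617635538514551391601562500000000000000000000000000000000000),2,0⟩,⟨(-43233585362294890636551269531250000000000000000000000000000000),3,0⟩,⟨88502613913613862523476448521679687500000000000000000000000000,4,0⟩,⟨268386014336851472803722566392578966386718750000000000000000000,5,0⟩,⟨(-548629372499272274298442156394357037949558382812500000000000000),6,0⟩,⟨(-350641332626730720221502862670164475411385239312240625000000000),7,0⟩,⟨1138380874188474719715582219750107582025725407757477784161250000,8,0⟩,⟨(-549096847311325181674441245593071025049033333315571968775859811),9,0⟩]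

/-- Certificate tree. -/
def tpl1 : OutT := (A (A (A (A (A (O l) (O l)) (A (A (O l) (O l)) (A (O l) (O l)))) (A (A (O l) (O l)) (A (O l) (O l)))) (A (A (O l) (A (O l) (O l))) (A (A (O l) (O l)) (A (A (O l) (O l)) (A (O l) (O l)))))) (A (A (A (A (A (A (O l) (O l)) (A (O l) (O l))) (A (A (O l) (O l)) (A (A (O l) (O l)) (A (O l) (O l))))) (A (A (A (A (O l) (O l)) (A (O l) (A (O l) (O l)))) (A (A (A (O l) (O l)) (A (O l) (O l))) (A (A (O l) (O l)) (A (O l) (O l))))) (A (A (A (A (O l) (O l)) (A (O l) (O l))) (A (A (O l) (O l)) (A (O l) (O l)))) (A (A (A (O l) (O l)) (A (O l) (O l))) (A (A (O l) (O l)) (A (O l) (O l))))))) (A (A (A (A (A (A (O l) (O l)) (O l)) (A (O l) (O l))) (A (A (O l) (O l)) (A (O l) (O l)))) (A (A (A (O l) (O l)) (A (O l) (O l))) (A (A (O l) (O l)) (A (O l) (O l))))) (A (A (A (O l) (O l)) (A (O l) (O l))) (A (A (O l) (O l)) (A (O l) (O l)))))) (A (A (A (A (A (O l) (O l)) (A (O l) (O l))) (A (A (O l) (O l)) (A (O l) (O l)))) (A (A (A (O l) (O l)) (A (O l) (O l))) (A (A (A (O l) (O l)) (A (O l) (O l))) (A (A (O l) (O l)) (A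 (O l) (O l)))))) (A (A (A (A (A (O l) (O l)) (A (O l) (O l))) (A (A (O l) (O l)) (A (O l) (O l)))) (A (A (A (A (O l) (O l)) (A (O l) (O l))) (A (A (O l) (O l)) (A (O l) (O l)))) (A (A (A (O l) (O l)) (A (O l) (O l))) (A (A (O l) (A (O l) (O l))) (A (A (O l) (O l)) (A (O l) (O l))))))) (A (A (A (A (A (A (O l) (O l)) (A (O l) (O l))) (A (A (O l) (O l)) (A (O l) (A (O l) (O l))))) (A (A (A (A (O l) (O l)) (A (O l) (O l))) (A (A (O l) (O l)) (A (O l) (O l)))) (A (A (A (O l) (O l)) (A (O l) (O l))) (A (A (O l) (O l)) (A (O l) (O l)))))) (A (A (A (A (A (O l) (O l)) (A (O l) (O l))) (A (A (O l) (O l)) (A (O l) (O l)))) (A (A (O l) (O l)) (A (O l) (O l)))) (A (A (A (O l) (O l)) (A (O l) (O l))) (A (A (O l) (O l)) (A (O l) (O l)))))) (A (A (A (A (O l) (O l)) (A (O l) (O l))) (A (A (O l) (O l)) (A (O l) (O l)))) (A (A (A (O l) (O l)) (O l)) (A (O l) (O l)))))))))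

theorem hpl1 (x : ℝ) (h0 : 0 ≤ x) (h1 : x ≤ 1) : evalIL lpl1 x 0 ≤ 0 :=
  uni_le 9 65536 lpl1 (by norm_num) (by norm_num) (by decide +kernel)
    (chkOut_sound (uniPb 9 65536 lpl1) tpl1 0 32768 0 32768 (by decide +kernel)) x h0 h1

/-- Certificate polynomial. -/
def lnu1 : List ITm := [⟨(-115203857421875000000000000000000000000000000000000000000000000),0,0⟩,⟨442690522174072265625000000000000000000000000000000000000000000,1,0⟩,⟨719057348929862578125000000000000000000000000000000000000000000,2,0⟩,⟨(-2766949463186873000739281250000000000000000000000000000000000000),3,0⟩,⟨(-2832083645235643600751246352693750000000000000000000000000000000),4,0⟩,⟨4294176229389623564859561062281263462187500000000000000000000000,5,0⟩,⟨4389034979994178194387537251154856303596467062500000000000000000,6,0⟩,⟨(-1402565330506922880886011450680657901645540957248962500000000000),7,0⟩,⟨(-2276761748376949439431164439500215164051450815514955568322500000),8,0⟩,⟨(-549096847311325181674441245593071025049033333315571968775859811),9,0⟩]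

/-- Certificate tree. -/
def tnu1 : OutT := (A (A (A (O l) (A (O l) (O l))) (A (A (A (O l) (A (O l) (O l))) (A (A (O l) (O l)) (O l))) (A (A (O l) (O l)) (O l)))) (A (A (A (O l) (O l)) (A (O l) (O l))) (A (A (A (O l) (O l)) (A (O l) (A (O l) (O l)))) (A (A (A (A (O l) (O l)) (A (O l) (O l))) (A (A (A (O l) (O l)) (A (O l) (O l))) (A (A (O l) (O l)) (A (O l) (O l))))) (A (A (A (O l) (O l)) (O l)) (A (O l) (O l)))))))

theorem hnu1 (x : ℝ) (h0 : 0 ≤ x) (h1 : x ≤ 1) : evalIL lnu1 x 0 ≤ 0 :=
  uni_le 9 65536 lnu1 (by norm_num) (by norm_num) (by decide +kernel)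
    (chkOut_sound (uniPb 9 65536 lnu1) tnu1 0 32768 0 32768 (by decide +kernel)) x h0 h1

/-- Certificate polynomial. -/
def lnl1 : List ITm := [⟨(-37078857421875000000000000000000000000000000000000000000000000),0,0⟩,⟨(-389423764544677734375000000000000000000000000000000000000000000),1,0⟩,⟨(-719057348929862578125000000000000000000000000000000000000000000),2,0⟩,⟨2766949463186873000739281250000000000000000000000000000000000000,3,0⟩,⟨2832083645235643600751246352693750000000000000000000000000000000,4,0⟩,⟨(-4294176229389623564859561062281263462187500000000000000000000000),5,0⟩,⟨(-4389034979994178194387537251154856303596467062500000000000000000),6,0⟩,⟨1402565330506922880886011450680657901645540957248962500000000000,7,0⟩,⟨2276761748376949439431164439500215164051450815514955568322500000,8,0⟩,⟨549096847311325181674441245593071025049033333315571968775859811,9,0⟩]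

/-- Certificate tree. -/
def tnl1 : OutT := (A (A (A (O l) (O l)) (A (O l) (O l))) (A (A (A (O l) (A (O l) (O l))) (A (A (A (O l) (O l)) (A (A (O l) (O l)) (A (O l) (O l)))) (A (A (A (O l) (O l)) (A (O l) (O l))) (A (O l) (O l))))) (A (A (A (A (O l) (O l)) (O l)) (A (O l) (O l))) (A (A (O l) (O l)) (A (O l) (A (O l) (A (O l) (A (O l) (O l)))))))))

theorem hnl1 (x : ℝ) (h0 : 0 ≤ x) (h1 : x ≤ 1) : evalIL lnl1 x 0 ≤ 0 :=
  uni_le 9 65536 lnl1 (by norm_num) (by norm_num) (by decide +kernel)
    (chkOut_sound (uniPb 9 65536 lnl1) tnl1 0 32768 0 32768 (by decide +kernel)) x h0 h1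

theorem apx1 (u : ℝ) (h0 : -(1748943 / 5000000 : ℝ) ≤ u) (h1 : u ≤ 2 * (1748943 / 5000000 : ℝ)) :
    |((1 + u)⁻¹) ^ 1 - evalZ Ax.p1 (3 * u) / Ax.D1| ≤ Ax.e1 * |u| ^ Ax.m1 := by
  have hu : 0 < 1 + u := by norm_num at h0 ⊢; linarith
  refine apx_of_S 1 2 _ (S1 u) _ u hu ?_ ?_ ?_
  · simp only [Ax, evalZ_cons, evalZ_nil, S1]
    push_cast
    ring
  · rcases le_total 0 u with hs | hs
    · have hx := hpu1 (u / (2 * (1748943 / 5000000 : ℝ))) (by positivity) (by rw [div_le_one (by norm_num)]; exact h1)
      have e : evalIL lpu1 (u / (2 * (1748943 / 5000000 : ℝ))) 0 = 32000000000000000000000000000000000000000000000000000000000000000 * (S1 u - Ax.e1 * (1 + u) ^ 1) := by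
        simp only [lpu1, evalIL, List.map_cons, List.map_nil, List.sum_cons, List.sum_nil, S1, Ax]
        push_cast
        ring
      rw [e] at hx
      have := cmul_nonpos (by norm_num) hx
      simp only [Ax] at this ⊢
      linarith
    · have hx := hnu1 (-u / (1748943 / 5000000 : ℝ)) (by apply div_nonneg <;> [linarith; norm_num]) (by rw [div_le_one (by norm_num)]; linarith)
      have e : evalIL lnu1 (-u / (1748943 / 5000000 : ℝ)) 0 = 16384000000000000000000000000000000000000000000000000000000000000000 * (S1 u - Ax.e1 * (1 + u) ^ 1) := by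
        simp only [lnu1, evalIL, List.map_cons, List.map_nil, List.sum_cons, List.sum_nil, S1, Ax]
        push_cast
        ring
      rw [e] at hx
      have := cmul_nonpos (by norm_num) hx
      simp only [Ax] at this ⊢
      linarith
  · rcases le_total 0 u with hs | hs
    · have hx := hpl1 (u / (2 * (1748943 / 5000000 : ℝ))) (by positivity) (by rw [div_le_one (by norm_num)]; exact h1)
      have e : evalIL lpl1 (u / (2 * (1748943 / 5000000 : ℝ))) 0 = 32000000000000000000000000000000000000000000000000000000000000000 * (-S1 u - Ax.e1 * (1 + u) ^ 1) := by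
        simp only [lpl1, evalIL, List.map_cons, List.map_nil, List.sum_cons, List.sum_nil, S1, Ax]
        push_cast
        ring
      rw [e] at hx
      have := cmul_nonpos (by norm_num) hx
      simp only [Ax] at this ⊢
      linarith
    · have hx := hnl1 (-u / (1748943 / 5000000 : ℝ)) (by apply div_nonneg <;> [linarith; norm_num]) (by rw [div_le_one (by norm_num)]; linarith)
      have e : evalIL lnl1 (-u / (1748943 / 5000000 : ℝ)) 0 = 16384000000000000000000000000000000000000000000000000000000000000000 * (-S1 u - Ax.e1 * (1 + u) ^ 1) := by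
        simp only [lnl1, evalIL, List.map_cons, List.map_nil, List.sum_cons, List.sum_nil, S1, Ax]
        push_cast
        ring
      rw [e] at hx
      have := cmul_nonpos (by norm_num) hx
      simp only [Ax] at this ⊢
      linarith

/-- The quotient polynomial for `j = 2`. -/
noncomputable def S2 (u : ℝ) : ℝ :=
  (-125 / 4194304 : ℝ) * u ^ 0 + (-7239 / 8388608 : ℝ) * u ^ 1 + (61867 / 16777216 : ℝ) * u ^ 2 + (416219 / 8388608 : ℝ) * u ^ 3 + (-825391 / 8388608 : ℝ) * u ^ 4 + (-184511 / 262144 : ℝ) * u ^ 5 + (10147879 / 8388608 : ℝ) * u ^ 6 + (12987617 / 4194304 : ℝ) * u ^ 7 + (-98707407 / 16777216 : ℝ) * u ^ 8 + (-13412297 / 8388608 : ℝ) * u ^ 9 + (38679489 / 8388608 : ℝ) * u ^ 10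

/-- Certificate polynomial. -/
def lpu2 : List ITm := [⟨(-6718635559082031250000000000000000000000000000000000000000000000000),0,0⟩,⟨(-54360914474487304687500000000000000000000000000000000000000000000000),1,0⟩,⟨142256491839801438903808593750000000000000000000000000000000000000000,2,0⟩,⟨1359029640649282300605305786132812500000000000000000000000000000000000,3,0⟩,⟨(-1885395227250409334984688250339599609375000000000000000000000000000000),4,0⟩,⟨(-9435188088174842287860864696673643353125000000000000000000000000000000),5,0⟩,⟨11344601583535387746391381310504197210892690273437500000000000000000000,6,0⟩,⟨20314637806791191968933981573898445146402440469622468750000000000000000,7,0⟩,⟨(-27002564340111124253634797670735326017469783540864255310646875000000000),8,0⟩,⟨(-5133624165095123153024934563182901863062327340540902653283820177500000),9,0⟩,⟨10357078873895147262170825581461099283149315070100092423773715836121761,10,0⟩]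

/-- Certificate tree. -/
def tpu2 : OutT := (A (A (A (O l) (A (O l) (A (O l) (O l)))) (A (A (A (O l) (A (O l) (A (O l) (O l)))) (A (A (A (O l) (O l)) (A (A (O l) (O l)) (A (O l) (O l)))) (A (A (A (O l) (O l)) (A (O l) (O l))) (A (O l) (O l))))) (A (A (A (A (O l) (O l)) (A (O l) (O l))) (A (O l) (O l))) (A (A (O l) (O l)) (A (O l) (O l)))))) (A (A (A (A (A (O l) (O l)) (A (O l) (O l))) (A (A (O l) (O l)) (A (O l) (O l)))) (A (A (A (O l) (O l)) (A (O l) (A (O l) (O l)))) (A (A (A (O l) (O l)) (A (O l) (O l))) (A (A (O l) (O l)) (A (A (O l) (O l)) (A (O l) (O l))))))) (A (A (A (A (A (A (O l) (O l)) (A (O l) (O l))) (A (A (O l) (O l)) (A (A (O l) (O l)) (A (O l) (O l))))) (A (A (A (A (O l) (O l)) (A (O l) (O l))) (A (A (O l) (O l)) (A (A (O l) (O l)) (A (O l) (O l))))) (A (A (A (A (O l) (O l)) (A (O l) (O l))) (A (A (O l) (O l)) (A (O l) (O l)))) (A (A (A (O l) (O l)) (A (O l) (O l))) (A (A (O l) (O l)) (A (O l) (O l))))))) (A (A (A (A (A (A (O l) (O l)) (A (O l) (O l))) (A (A (O l) (O l)) (A (O l) (O l)))) (A (A (A (O l) (O l)) (A (O l) (O l)))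 (A (A (O l) (O l)) (O l)))) (A (A (A (O l) (O l)) (A (O l) (O l))) (A (A (O l) (O l)) (A (O l) (O l))))) (A (A (A (A (O l) (O l)) (A (O l) (O l))) (A (O l) (O l))) (A (A (O l) (O l)) (A (O l) (O l)))))) (A (A (A (A (A (O l) (O l)) (A (O l) (O l))) (A (A (O l) (O l)) (A (O l) (O l)))) (A (A (A (O l) (O l)) (A (O l) (O l))) (A (A (O l) (O l)) (A (O l) (O l))))) (A (A (A (A (O l) (O l)) (A (O l) (O l))) (A (A (O l) (O l)) (A (O l) (O l)))) (A (A (A (O l) (O l)) (A (O l) (O l))) (A (A (O l) (O l)) (A (A (O l) (O l)) (A (O l) (A (O l) (A (O l) (O l))))))))))))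

theorem hpu2 (x : ℝ) (h0 : 0 ≤ x) (h1 : x ≤ 1) : evalIL lpu2 x 0 ≤ 0 :=
  uni_le 10 65536 lpu2 (by norm_num) (by norm_num) (by decide +kernel)
    (chkOut_sound (uniPb 10 65536 lpu2) tpu2 0 32768 0 32768 (by decide +kernel)) x h0 h1

/-- Certificate polynomial. -/
def lpl2 : List ITm := [⟨(-1950263977050781250000000000000000000000000000000000000000000000000),0,0⟩,⟨42231785545349121093750000000000000000000000000000000000000000000000,1,0⟩,⟨(-146499122867144183349609375000000000000000000000000000000000000000000),2,0⟩,⟨(-1359029640649282300605305786132812500000000000000000000000000000000000),3,0⟩,⟨1885395227250409334984688250339599609375000000000000000000000000000000,4,0⟩,⟨9435188088174842287860864696673643353125000000000000000000000000000000,5,0⟩,⟨(-11344601583535387746391381310504197210892690273437500000000000000000000),6,0⟩,⟨(-20314637806791191968933981573898445146402440469622468750000000000000000),7,0⟩,⟨27002564340111124253634797670735326017469783540864255310646875000000000,8,0⟩,⟨5133624165095123153024934563182901863062327340540902653283820177500000,9,0⟩,⟨(-10357078873895147262170825581461099283149315070100092423773715836121761),10,0⟩]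

/-- Certificate tree. -/
def tpl2 : OutT := (A (A (A (A (A (O l) (O l)) (A (A (O l) (O l)) (A (O l) (O l)))) (A (A (O l) (O l)) (O l))) (A (A (O l) (A (O l) (O l))) (A (A (O l) (O l)) (A (A (O l) (O l)) (A (O l) (O l)))))) (A (A (A (A (A (O l) (A (O l) (O l))) (A (A (O l) (O l)) (A (A (O l) (O l)) (A (O l) (O l))))) (A (A (A (A (O l) (O l)) (A (O l) (A (O l) (O l)))) (A (A (A (O l) (O l)) (A (O l) (O l))) (A (A (O l) (O l)) (A (O l) (O l))))) (A (A (A (A (O l) (O l)) (A (O l) (O l))) (A (A (O l) (O l)) (A (O l) (O l)))) (A (A (A (O l) (O l)) (A (O l) (O l))) (A (A (O l) (O l)) (O l)))))) (A (A (A (A (A (O l) (O l)) (A (O l) (O l))) (A (A (O l) (O l)) (A (O l) (O l)))) (A (A (A (O l) (O l)) (O l)) (A (O l) (O l)))) (A (A (A (O l) (O l)) (A (O l) (O l))) (A (A (O l) (O l)) (A (O l) (O l)))))) (A (A (A (A (A (O l) (O l)) (A (O l) (O l))) (A (A (O l) (O l)) (A (O l) (O l)))) (A (A (A (O l) (O l)) (A (O l) (O l))) (A (A (O l) (O l)) (A (O l) (O l))))) (A (A (A (A (A (O l) (O l)) (A (O l) (O l))) (A (A (O l) (O l)) (A (O l) (O l)))) (A (A (A (O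 l) (O l)) (A (A (O l) (O l)) (A (O l) (O l)))) (A (A (A (O l) (O l)) (A (O l) (O l))) (A (A (O l) (O l)) (A (O l) (A (O l) (O l))))))) (A (A (A (A (A (A (O l) (O l)) (A (O l) (O l))) (A (A (O l) (O l)) (A (O l) (O l)))) (A (A (A (A (O l) (O l)) (A (O l) (O l))) (A (A (O l) (O l)) (A (O l) (O l)))) (A (A (A (O l) (O l)) (A (O l) (O l))) (A (A (O l) (O l)) (A (O l) (O l)))))) (A (A (A (A (A (O l) (O l)) (A (O l) (O l))) (A (A (O l) (O l)) (O l))) (A (A (O l) (O l)) (A (O l) (O l)))) (A (A (A (O l) (O l)) (A (O l) (O l))) (A (O l) (O l))))) (A (A (A (A (O l) (O l)) (A (O l) (O l))) (A (A (O l) (O l)) (O l))) (A (A (O l) (O l)) (A (O l) (O l)))))))))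

theorem hpl2 (x : ℝ) (h0 : 0 ≤ x) (h1 : x ≤ 1) : evalIL lpl2 x 0 ≤ 0 :=
  uni_le 10 65536 lpl2 (by norm_num) (by norm_num) (by decide +kernel)
    (chkOut_sound (uniPb 10 65536 lpl2) tpl2 0 32768 0 32768 (by decide +kernel)) x h0 h1

/-- Certificate polynomial. -/
def lnu2 : List ITm := [⟨(-6879882812500000000000000000000000000000000000000000000000000000000000),0,0⟩,⟨27832788210937500000000000000000000000000000000000000000000000000000000,1,0⟩,⟨36417661910989168359375000000000000000000000000000000000000000000000000,2,0⟩,⟨(-173955794003108134477479140625000000000000000000000000000000000000000000),3,0⟩,⟨(-120665294544026197439020048021734375000000000000000000000000000000000000),4,0⟩,⟨301926018821594953211547670293556587300000000000000000000000000000000000,5,0⟩,⟨181513625336566203942262100968067155374283044375000000000000000000000000,6,0⟩,⟨(-162517102454329535751471852591187561171219523756979750000000000000000000),7,0⟩,⟨(-108010257360444497014539190682941304069879134163457021242587500000000000),8,0⟩,⟨10267248330190246306049869126365803726124654681081805306567640355000000,9,0⟩,⟨10357078873895147262170825581461099283149315070100092423773715836121761,10,0⟩]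

/-- Certificate tree. -/
def tnu2 : OutT := (A (A (A (O l) (A (O l) (O l))) (A (A (A (O l) (A (O l) (O l))) (A (A (O l) (O l)) (A (O l) (O l)))) (A (A (O l) (O l)) (O l)))) (A (A (A (O l) (O l)) (A (O l) (O l))) (A (A (A (O l) (O l)) (A (A (O l) (O l)) (A (O l) (O l)))) (A (A (A (A (O l) (O l)) (A (O l) (A (O l) (O l)))) (A (A (A (O l) (O l)) (A (O l) (O l))) (A (A (O l) (O l)) (A (O l) (O l))))) (A (A (A (A (O l) (O l)) (O l)) (A (O l) (O l))) (A (O l) (O l)))))))

theorem hnu2 (x : ℝ) (h0 : 0 ≤ x) (h1 : x ≤ 1) : evalIL lnu2 x 0 ≤ 0 :=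
  uni_le 10 65536 lnu2 (by norm_num) (by norm_num) (by decide +kernel)
    (chkOut_sound (uniPb 10 65536 lnu2) tnu2 0 32768 0 32768 (by decide +kernel)) x h0 h1

/-- Certificate polynomial. -/
def lnl2 : List ITm := [⟨(-1997070312500000000000000000000000000000000000000000000000000000000000),0,0⟩,⟨(-21622674199218750000000000000000000000000000000000000000000000000000000),1,0⟩,⟨(-37503775453988910937500000000000000000000000000000000000000000000000000),2,0⟩,⟨173955794003108134477479140625000000000000000000000000000000000000000000,3,0⟩,⟨120665294544026197439020048021734375000000000000000000000000000000000000,4,0⟩,⟨(-301926018821594953211547670293556587300000000000000000000000000000000000),5,0⟩,⟨(-181513625336566203942262100968067155374283044375000000000000000000000000),6,0⟩,⟨162517102454329535751471852591187561171219523756979750000000000000000000,7,0⟩,⟨108010257360444497014539190682941304069879134163457021242587500000000000,8,0⟩,⟨(-10267248330190246306049869126365803726124654681081805306567640355000000),9,0⟩,⟨(-10357078873895147262170825581461099283149315070100092423773715836121761),10,0⟩]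

/-- Certificate tree. -/
def tnl2 : OutT := (A (A (A (O l) (O l)) (A (O l) (A (O l) (O l)))) (A (A (A (O l) (A (O l) (O l))) (A (A (A (O l) (O l)) (A (A (O l) (O l)) (A (O l) (O l)))) (A (A (A (A (O l) (O l)) (O l)) (A (O l) (O l))) (A (A (O l) (O l)) (O l))))) (A (A (A (A (O l) (O l)) (A (O l) (O l))) (A (O l) (O l))) (A (A (O l) (O l)) (A (A (O l) (O l)) (A (O l) (A (O l) (A (O l) (A (O l) (O l))))))))))

theorem hnl2 (x : ℝ) (h0 : 0 ≤ x) (h1 : x ≤ 1) : evalIL lnl2 x 0 ≤ 0 :=
  uni_le 10 65536 lnl2 (by norm_num) (by norm_num) (by decide +kernel)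
    (chkOut_sound (uniPb 10 65536 lnl2) tnl2 0 32768 0 32768 (by decide +kernel)) x h0 h1

theorem apx2 (u : ℝ) (h0 : -(1748943 / 5000000 : ℝ) ≤ u) (h1 : u ≤ 2 * (1748943 / 5000000 : ℝ)) :
    |((1 + u)⁻¹) ^ 2 - evalZ Ax.p2 (3 * u) / Ax.D2| ≤ Ax.e2 * |u| ^ Ax.m2 := by
  have hu : 0 < 1 + u := by norm_num at h0 ⊢; linarith
  refine apx_of_S 2 2 _ (S2 u) _ u hu ?_ ?_ ?_
  · simp only [Ax, evalZ_cons, evalZ_nil, S2]
    push_cast
    ring
  · rcases le_total 0 u with hs | hs
    · have hx := hpu2 (u / (2 * (1748943 / 5000000 : ℝ))) (by positivity) (by rw [div_le_one (by norm_num)]; exact h1)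
      have e : evalIL lpu2 (u / (2 * (1748943 / 5000000 : ℝ))) 0 = 80000000000000000000000000000000000000000000000000000000000000000000000 * (S2 u - Ax.e2 * (1 + u) ^ 2) := by
        simp only [lpu2, evalIL, List.map_cons, List.map_nil, List.sum_cons, List.sum_nil, S2, Ax]
        push_cast
        ring
      rw [e] at hx
      have := cmul_nonpos (by norm_num) hx
      simp only [Ax] at this ⊢
      linarith
    · have hx := hnu2 (-u / (1748943 / 5000000 : ℝ)) (by apply div_nonneg <;> [linarith; norm_num]) (by rw [div_le_one (by norm_num)]; linarith)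
      have e : evalIL lnu2 (-u / (1748943 / 5000000 : ℝ)) 0 = 81920000000000000000000000000000000000000000000000000000000000000000000000 * (S2 u - Ax.e2 * (1 + u) ^ 2) := by
        simp only [lnu2, evalIL, List.map_cons, List.map_nil, List.sum_cons, List.sum_nil, S2, Ax]
        push_cast
        ring
      rw [e] at hx
      have := cmul_nonpos (by norm_num) hx
      simp only [Ax] at this ⊢
      linarith
  · rcases le_total 0 u with hs | hs
    · have hx := hpl2 (u / (2 * (1748943 / 5000000 : ℝ))) (by positivity) (by rw [div_le_one (by norm_num)]; exact h1)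
      have e : evalIL lpl2 (u / (2 * (1748943 / 5000000 : ℝ))) 0 = 80000000000000000000000000000000000000000000000000000000000000000000000 * (-S2 u - Ax.e2 * (1 + u) ^ 2) := by
        simp only [lpl2, evalIL, List.map_cons, List.map_nil, List.sum_cons, List.sum_nil, S2, Ax]
        push_cast
        ring
      rw [e] at hx
      have := cmul_nonpos (by norm_num) hx
      simp only [Ax] at this ⊢
      linarith
    · have hx := hnl2 (-u / (1748943 / 5000000 : ℝ)) (by apply div_nonneg <;> [linarith; norm_num]) (by rw [div_le_one (by norm_num)]; linarith)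
      have e : evalIL lnl2 (-u / (1748943 / 5000000 : ℝ)) 0 = 81920000000000000000000000000000000000000000000000000000000000000000000000 * (-S2 u - Ax.e2 * (1 + u) ^ 2) := by
        simp only [lnl2, evalIL, List.map_cons, List.map_nil, List.sum_cons, List.sum_nil, S2, Ax]
        push_cast
        ring
      rw [e] at hx
      have := cmul_nonpos (by norm_num) hx
      simp only [Ax] at this ⊢
      linarith

/-- The quotient polynomial for `j = 3`. -/
noncomputable def S3 (u : ℝ) : ℝ :=
  (5719 / 8388608 : ℝ) * u ^ 0 + (-244861 / 16777216 : ℝ) * u ^ 1 + (-2192521 / 16777216 : ℝ) * u ^ 2 + (2079635 / 4194304 : ℝ) * u ^ 3 + (49751643 / 16777216 : ℝ) * u ^ 4 + (-22175823 / 4194304 : ℝ) * u ^ 5 + (-321308825 / 16777216 : ℝ) * u ^ 6 + (395891625 / 16777216 : ℝ) * u ^ 7 + (300837113 / 8388608 : ℝ) * u ^ 8 + (-49957579 / 2097152 : ℝ) * u ^ 9 + (-429111797 / 16777216 : ℝ) * u ^ 10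

/-- Certificate polynomial. -/
def lpu3 : List ITm := [⟨(-91734826564788818359375000000000000000000000000000000000000000000000),0,0⟩,⟨(-2055095299019694328308105468750000000000000000000000000000000000000000),1,0⟩,⟨(-10528129879613626341676712036132812500000000000000000000000000000000000),2,0⟩,⟨27092768980691655211807242794036865234375000000000000000000000000000000,3,0⟩,⟨113644939501480191615883405921787841796875000000000000000000000000000000,4,0⟩,⟨(-141748365283827045290333356913939686362890625000000000000000000000000000),5,0⟩,⟨(-359200243213275875945349044761478114135989157226562500000000000000000000),6,0⟩,⟨309617806431195230975329172511428117798000397666662109375000000000000000,7,0⟩,⟨329190027235779001656796527442085073360680916080331037063912500000000000,8,0⟩,⟨(-152972117920769966505795245906075781813172434245338913704482419940000000),9,0⟩,⟨(-114901847003404906182957926001409744554474709038938741663097584453754453),10,0⟩]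

/-- Certificate tree. -/
def tpu3 : OutT := (A (A (A (A (O l) (O l)) (O l)) (A (A (O l) (A (O l) (O l))) (A (A (O l) (A (O l) (O l))) (A (A (O l) (A (O l) (O l))) (A (A (O l) (A (O l) (O l))) (A (A (O l) (O l)) (A (O l) (O l)))))))) (A (A (A (A (A (A (A (O l) (O l)) (A (O l) (O l))) (A (O l) (O l))) (A (A (O l) (O l)) (A (O l) (O l)))) (A (A (O l) (O l)) (A (O l) (O l)))) (A (A (A (O l) (O l)) (A (O l) (O l))) (A (A (O l) (O l)) (A (O l) (O l))))) (A (A (A (A (O l) (O l)) (A (O l) (O l))) (A (A (O l) (O l)) (A (A (O l) (O l)) (A (O l) (O l))))) (A (A (A (A (O l) (O l)) (A (O l) (A (O l) (O l)))) (A (A (A (O l) (O l)) (A (O l) (A (O l) (O l)))) (A (A (A (O l) (O l)) (A (O l) (O l))) (A (A (O l) (A (O l) (O l))) (A (A (O l) (O l)) (A (O l) (O l))))))) (A (A (A (A (A (A (O l) (O l)) (A (O l) (O l))) (A (O l) (O l))) (A (A (O l) (O l)) (A (O l) (O l)))) (A (A (O l) (O l)) (A (O l) (O l)))) (A (A (A (O l) (O l)) (O l)) (A (O l) (O l))))))))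

theorem hpu3 (x : ℝ) (h0 : 0 ≤ x) (h1 : x ≤ 1) : evalIL lpu3 x 0 ≤ 0 :=
  uni_le 10 65536 lpu3 (by norm_num) (by norm_num) (by decide +kernel)
    (chkOut_sound (uniPb 10 65536 lpu3) tpu3 0 32768 0 32768 (by decide +kernel)) x h0 h1

/-- Certificate polynomial. -/
def lpl3 : List ITm := [⟨(-309897363185882568359375000000000000000000000000000000000000000000000),0,0⟩,⟨1212177130812764167785644531250000000000000000000000000000000000000000,1,0⟩,⟨9938443547670293119382858276367187500000000000000000000000000000000000,2,0⟩,⟨(-27230279351684717749913680057525634765625000000000000000000000000000000),3,0⟩,⟨(-113644939501480191615883405921787841796875000000000000000000000000000000),4,0⟩,⟨141748365283827045290333356913939686362890625000000000000000000000000000,5,0⟩,⟨359200243213275875945349044761478114135989157226562500000000000000000000,6,0⟩,⟨(-309617806431195230975329172511428117798000397666662109375000000000000000),7,0⟩,⟨(-329190027235779001656796527442085073360680916080331037063912500000000000),8,0⟩,⟨152972117920769966505795245906075781813172434245338913704482419940000000,9,0⟩,⟨114901847003404906182957926001409744554474709038938741663097584453754453,10,0⟩]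

/-- Certificate tree. -/
def tpl3 : OutT := (A (A (A (A (O l) (O l)) (A (A (O l) (A (O l) (O l))) (A (A (O l) (A (O l) (O l))) (A (O l) (O l))))) (A (A (A (O l) (O l)) (A (O l) (O l))) (A (A (O l) (O l)) (A (O l) (O l))))) (A (A (A (A (O l) (O l)) (A (O l) (A (O l) (O l)))) (A (A (A (O l) (O l)) (A (O l) (A (O l) (O l)))) (A (A (A (O l) (O l)) (A (O l) (O l))) (A (A (A (O l) (O l)) (A (O l) (O l))) (A (A (O l) (O l)) (A (A (O l) (O l)) (A (O l) (O l)))))))) (A (A (A (A (A (A (A (O l) (O l)) (A (O l) (O l))) (A (A (O l) (O l)) (A (O l) (O l)))) (A (A (A (O l) (O l)) (A (O l) (O l))) (A (O l) (O l)))) (A (A (A (O l) (O l)) (A (O l) (O l))) (A (A (O l) (O l)) (O l)))) (A (A (A (O l) (O l)) (A (O l) (O l))) (A (A (O l) (O l)) (A (O l) (O l))))) (A (A (A (O l) (O l)) (A (O l) (O l))) (A (A (O l) (A (O l) (O l))) (A (A (O l) (O l)) (A (O l) (A (O l) (A (O l) (A (O l) (O l)))))))))))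

theorem hpl3 (x : ℝ) (h0 : 0 ≤ x) (h1 : x ≤ 1) : evalIL lpl3 x 0 ≤ 0 :=
  uni_le 10 65536 lpl3 (by norm_num) (by norm_num) (by decide +kernel)
    (chkOut_sound (uniPb 10 65536 lpl3) tpl3 0 32768 0 32768 (by decide +kernel)) x h0 h1

/-- Certificate polynomial. -/
def lnu3 : List ITm := [⟨(-93936462402343750000000000000000000000000000000000000000000000000000000),0,0⟩,⟨1052208793098083496093750000000000000000000000000000000000000000000000000,1,0⟩,⟨(-2695201249181088343469238281250000000000000000000000000000000000000000000),2,0⟩,⟨(-3467874429528531867111327077636718750000000000000000000000000000000000000),3,0⟩,⟨7273276128094732263416537978994421875000000000000000000000000000000000000,4,0⟩,⟨4535947689082465449290667421246069963612500000000000000000000000000000000,5,0⟩,⟨(-5747203891412414015125584716183649826175826515625000000000000000000000000),6,0⟩,⟨(-2476942451449561847802633380091424942384003181333296875000000000000000000),7,0⟩,⟨1316760108943116006627186109768340293442723664321324148255650000000000000,8,0⟩,⟨305944235841539933011590491812151563626344868490677827408964839880000000,9,0⟩,⟨(-114901847003404906182957926001409744554474709038938741663097584453754453),10,0⟩]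

/-- Certificate tree. -/
def tnu3 : OutT := (A (A (A (A (O l) (O l)) (A (A (O l) (O l)) (A (O l) (O l)))) (A (A (O l) (O l)) (O l))) (A (A (O l) (A (O l) (O l))) (A (A (A (O l) (O l)) (A (A (O l) (O l)) (A (O l) (A (O l) (O l))))) (A (A (A (A (O l) (A (O l) (O l))) (A (A (O l) (O l)) (A (O l) (O l)))) (A (A (A (O l) (O l)) (A (O l) (O l))) (A (O l) (O l)))) (A (A (A (O l) (O l)) (O l)) (A (O l) (O l)))))))

theorem hnu3 (x : ℝ) (h0 : 0 ≤ x) (h1 : x ≤ 1) : evalIL lnu3 x 0 ≤ 0 :=
  uni_le 10 65536 lnu3 (by norm_num) (by norm_num) (by decide +kernel)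
    (chkOut_sound (uniPb 10 65536 lnu3) tnu3 0 32768 0 32768 (by decide +kernel)) x h0 h1

/-- Certificate polynomial. -/
def lnl3 : List ITm := [⟨(-317334899902343750000000000000000000000000000000000000000000000000000000),0,0⟩,⟨(-620634690976135253906250000000000000000000000000000000000000000000000000),1,0⟩,⟨2544241548203595038562011718750000000000000000000000000000000000000000000,2,0⟩,⟨3485475757015643871988951047363281250000000000000000000000000000000000000,3,0⟩,⟨(-7273276128094732263416537978994421875000000000000000000000000000000000000),4,0⟩,⟨(-4535947689082465449290667421246069963612500000000000000000000000000000000),5,0⟩,⟨5747203891412414015125584716183649826175826515625000000000000000000000000,6,0⟩,⟨2476942451449561847802633380091424942384003181333296875000000000000000000,7,0⟩,⟨(-1316760108943116006627186109768340293442723664321324148255650000000000000),8,0⟩,⟨(-305944235841539933011590491812151563626344868490677827408964839880000000),9,0⟩,⟨114901847003404906182957926001409744554474709038938741663097584453754453,10,0⟩]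

/-- Certificate tree. -/
def tnl3 : OutT := (A (A (O l) (A (O l) (A (O l) (O l)))) (A (A (A (A (O l) (O l)) (A (A (O l) (O l)) (A (A (O l) (O l)) (A (O l) (O l))))) (A (A (A (A (O l) (O l)) (A (O l) (O l))) (A (O l) (O l))) (A (A (O l) (O l)) (O l)))) (A (A (A (O l) (O l)) (A (O l) (O l))) (A (A (O l) (O l)) (A (O l) (A (O l) (A (O l) (A (O l) (O l)))))))))

theorem hnl3 (x : ℝ) (h0 : 0 ≤ x) (h1 : x ≤ 1) : evalIL lnl3 x 0 ≤ 0 :=
  uni_le 10 65536 lnl3 (by norm_num) (by norm_num) (by decide +kernel)
    (chkOut_sound (uniPb 10 65536 lnl3) tnl3 0 32768 0 32768 (by decide +kernel)) x h0 h1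

theorem apx3 (u : ℝ) (h0 : -(1748943 / 5000000 : ℝ) ≤ u) (h1 : u ≤ 2 * (1748943 / 5000000 : ℝ)) :
    |((1 + u)⁻¹) ^ 3 - evalZ Ax.p3 (3 * u) / Ax.D3| ≤ Ax.e3 * |u| ^ Ax.m3 := by
  have hu : 0 < 1 + u := by norm_num at h0 ⊢; linarith
  refine apx_of_S 3 2 _ (S3 u) _ u hu ?_ ?_ ?_
  · simp only [Ax, evalZ_cons, evalZ_nil, S3]
    push_cast
    ring
  · rcases le_total 0 u with hs | hs
    · have hx := hpu3 (u / (2 * (1748943 / 5000000 : ℝ))) (by positivity) (by rw [div_le_one (by norm_num)]; exact h1)
      have e : evalIL lpu3 (u / (2 * (1748943 / 5000000 : ℝ))) 0 = 160000000000000000000000000000000000000000000000000000000000000000000000 * (S3 u - Ax.e3 * (1 + u) ^ 3) := by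
        simp only [lpu3, evalIL, List.map_cons, List.map_nil, List.sum_cons, List.sum_nil, S3, Ax]
        push_cast
        ring
      rw [e] at hx
      have := cmul_nonpos (by norm_num) hx
      simp only [Ax] at this ⊢
      linarith
    · have hx := hnu3 (-u / (1748943 / 5000000 : ℝ)) (by apply div_nonneg <;> [linarith; norm_num]) (by rw [div_le_one (by norm_num)]; linarith)
      have e : evalIL lnu3 (-u / (1748943 / 5000000 : ℝ)) 0 = 163840000000000000000000000000000000000000000000000000000000000000000000000 * (S3 u - Ax.e3 * (1 + u) ^ 3) := by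
        simp only [lnu3, evalIL, List.map_cons, List.map_nil, List.sum_cons, List.sum_nil, S3, Ax]
        push_cast
        ring
      rw [e] at hx
      have := cmul_nonpos (by norm_num) hx
      simp only [Ax] at this ⊢
      linarith
  · rcases le_total 0 u with hs | hs
    · have hx := hpl3 (u / (2 * (1748943 / 5000000 : ℝ))) (by positivity) (by rw [div_le_one (by norm_num)]; exact h1)
      have e : evalIL lpl3 (u / (2 * (1748943 / 5000000 : ℝ))) 0 = 160000000000000000000000000000000000000000000000000000000000000000000000 * (-S3 u - Ax.e3 * (1 + u) ^ 3) := by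
        simp only [lpl3, evalIL, List.map_cons, List.map_nil, List.sum_cons, List.sum_nil, S3, Ax]
        push_cast
        ring
      rw [e] at hx
      have := cmul_nonpos (by norm_num) hx
      simp only [Ax] at this ⊢
      linarith
    · have hx := hnl3 (-u / (1748943 / 5000000 : ℝ)) (by apply div_nonneg <;> [linarith; norm_num]) (by rw [div_le_one (by norm_num)]; linarith)
      have e : evalIL lnl3 (-u / (1748943 / 5000000 : ℝ)) 0 = 163840000000000000000000000000000000000000000000000000000000000000000000000 * (-S3 u - Ax.e3 * (1 + u) ^ 3) := by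
        simp only [lnl3, evalIL, List.map_cons, List.map_nil, List.sum_cons, List.sum_nil, S3, Ax]
        push_cast
        ring
      rw [e] at hx
      have := cmul_nonpos (by norm_num) hx
      simp only [Ax] at this ⊢
      linarith

/-- The quotient polynomial for `j = 4`. -/
noncomputable def S4 (u : ℝ) : ℝ :=
  (72461 / 4194304 : ℝ) * u ^ 0 + (1962079 / 16777216 : ℝ) * u ^ 1 + (-24675271 / 16777216 : ℝ) * u ^ 2 + (-112159141 / 16777216 : ℝ) * u ^ 3 + (286805735 / 16777216 : ℝ) * u ^ 4 + (1123496403 / 16777216 : ℝ) * u ^ 5 + (-977762601 / 16777216 : ℝ) * u ^ 6 + (-3305190811 / 16777216 : ℝ) * u ^ 7 + (169742413 / 16777216 : ℝ) * u ^ 8 + (1610818695 / 8388608 : ℝ) * u ^ 9 + (182321073 / 2097152 : ℝ) * u ^ 10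

/-- Certificate polynomial. -/
def lpu4 : List ITm := [⟨(-13630613684654235839843750000000000000000000000000000000000000000000),0,0⟩,⟨631280338370203971862792968750000000000000000000000000000000000000000,1,0⟩,⟨(-15450679795047461360192298889160156250000000000000000000000000000000000),2,0⟩,⟨(-46269326074835769595214197254180908203125000000000000000000000000000000),3,0⟩,⟨81805794989928791996470076025816553115844726562500000000000000000000000,4,0⟩,⟨224419205500723918253518168699599134082385253906250000000000000000000000,5,0⟩,⟨(-136633565886357625796178262400218958148044807856445312500000000000000000),6,0⟩,⟨(-323114289402548987101798550513984100899133843934623978515625000000000000),7,0⟩,⟨11608755025542852419765202061779907060437220311171741148760156250000000,8,0⟩,⟨154137240217670970681232125927547627102410698748188274649835905865625000,9,0⟩,⟨48819510863605125143509450947189000585382964671423634063562592061100177,10,0⟩]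

/-- Certificate tree. -/
def tpu4 : OutT := (A (A (A (A (A (O l) (A (O l) (O l))) (A (O l) (O l))) (A (O l) (O l))) (A (O l) (A (O l) (O l)))) (A (A (A (A (O l) (O l)) (A (O l) (A (O l) (O l)))) (A (A (A (O l) (A (O l) (O l))) (A (A (O l) (A (O l) (O l))) (A (A (O l) (O l)) (A (O l) (O l))))) (A (A (A (A (O l) (O l)) (O l)) (A (O l) (O l))) (A (A (O l) (O l)) (O l))))) (A (A (A (A (O l) (O l)) (A (O l) (O l))) (A (O l) (O l))) (A (A (O l) (O l)) (A (O l) (A (O l) (A (O l) (A (O l) (A (O l) (O l))))))))))

theorem hpu4 (x : ℝ) (h0 : 0 ≤ x) (h1 : x ≤ 1) : evalIL lpu4 x 0 ≤ 0 :=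
  uni_le 10 65536 lpu4 (by norm_num) (by norm_num) (by decide +kernel)
    (chkOut_sound (uniPb 10 65536 lpu4) tpu4 0 32768 0 32768 (by decide +kernel)) x h0 h1

/-- Certificate polynomial. -/
def lpl4 : List ITm := [⟨(-704672560095787048339843750000000000000000000000000000000000000000000),0,0⟩,⟨(-2641314430627942085266113281250000000000000000000000000000000000000000),1,0⟩,⟨13341418761798146198630332946777343750000000000000000000000000000000000,2,0⟩,⟨45285598789695994393452152080535888671875000000000000000000000000000000,3,0⟩,⟨(-81977843284854213382539607683029577255249023437500000000000000000000000),4,0⟩,⟨(-224419205500723918253518168699599134082385253906250000000000000000000000),5,0⟩,⟨136633565886357625796178262400218958148044807856445312500000000000000000,6,0⟩,⟨323114289402548987101798550513984100899133843934623978515625000000000000,7,0⟩,⟨(-11608755025542852419765202061779907060437220311171741148760156250000000),8,0⟩,⟨(-154137240217670970681232125927547627102410698748188274649835905865625000),9,0⟩,⟨(-48819510863605125143509450947189000585382964671423634063562592061100177),10,0⟩]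

/-- Certificate tree. -/
def tpl4 : OutT := (A (A (A (O l) (A (O l) (O l))) (A (A (A (O l) (O l)) (A (A (O l) (O l)) (A (A (O l) (O l)) (A (O l) (O l))))) (A (A (A (O l) (O l)) (A (O l) (O l))) (A (O l) (O l))))) (A (A (A (A (O l) (O l)) (O l)) (A (O l) (A (O l) (O l)))) (A (A (A (O l) (O l)) (A (A (O l) (O l)) (A (O l) (O l)))) (A (A (A (A (O l) (O l)) (A (A (O l) (O l)) (A (O l) (O l)))) (A (A (A (O l) (O l)) (A (O l) (O l))) (A (A (O l) (O l)) (A (O l) (O l))))) (A (A (A (O l) (O l)) (A (O l) (O l))) (A (O l) (O l)))))))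

theorem hpl4 (x : ℝ) (h0 : 0 ≤ x) (h1 : x ≤ 1) : evalIL lpl4 x 0 ≤ 0 :=
  uni_le 10 65536 lpl4 (by norm_num) (by norm_num) (by decide +kernel)
    (chkOut_sound (uniPb 10 65536 lpl4) tpl4 0 32768 0 32768 (by decide +kernel)) x h0 h1

/-- Certificate polynomial. -/
def lnu4 : List ITm := [⟨(-13957748413085937500000000000000000000000000000000000000000000000000000),0,0⟩,⟨(-323215533245544433593750000000000000000000000000000000000000000000000000),1,0⟩,⟨(-3955374027532150108209228515625000000000000000000000000000000000000000000),2,0⟩,⟨5922473737578978508187417248535156250000000000000000000000000000000000000,3,0⟩,⟨5235570879355442687774084865652259399414062500000000000000000000000000000,4,0⟩,⟨(-7181414576023165384112581398387172290636328125000000000000000000000000000),5,0⟩,⟨(-2186137054181722012738852198403503330368716925703125000000000000000000000),6,0⟩,⟨2584914315220391896814388404111872807193070751476991828125000000000000000,7,0⟩,⟨46435020102171409679060808247119628241748881244686964595040625000000000,8,0⟩,⟨(-308274480435341941362464251855095254204821397496376549299671811731250000),9,0⟩,⟨48819510863605125143509450947189000585382964671423634063562592061100177,10,0⟩]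

/-- Certificate tree. -/
def tnu4 : OutT := (A (A (A (A (O l) (O l)) (O l)) (A (O l) (O l))) (A (A (O l) (A (O l) (O l))) (A (A (A (O l) (O l)) (A (A (O l) (O l)) (A (A (O l) (O l)) (A (O l) (A (O l) (O l)))))) (A (A (A (A (A (O l) (O l)) (A (O l) (O l))) (A (A (O l) (O l)) (O l))) (A (A (O l) (O l)) (O l))) (A (A (O l) (O l)) (O l))))))

theorem hnu4 (x : ℝ) (h0 : 0 ≤ x) (h1 : x ≤ 1) : evalIL lnu4 x 0 ≤ 0 :=
  uni_le 10 65536 lnu4 (by norm_num) (by norm_num) (by decide +kernel)
    (chkOut_sound (uniPb 10 65536 lnu4) tnu4 0 32768 0 32768 (by decide +kernel)) x h0 h1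

/-- Certificate polynomial. -/
def lnl4 : List ITm := [⟨(-721584701538085937500000000000000000000000000000000000000000000000000000),0,0⟩,⟨1352352988481506347656250000000000000000000000000000000000000000000000000,1,0⟩,⟨3415403203020325426849365234375000000000000000000000000000000000000000000,2,0⟩,⟨(-5796556645081087282361875466308593750000000000000000000000000000000000000),3,0⟩,⟨(-5246581970230669656482534891713892944335937500000000000000000000000000000),4,0⟩,⟨7181414576023165384112581398387172290636328125000000000000000000000000000,5,0⟩,⟨2186137054181722012738852198403503330368716925703125000000000000000000000,6,0⟩,⟨(-2584914315220391896814388404111872807193070751476991828125000000000000000),7,0⟩,⟨(-46435020102171409679060808247119628241748881244686964595040625000000000),8,0⟩,⟨308274480435341941362464251855095254204821397496376549299671811731250000,9,0⟩,⟨(-48819510863605125143509450947189000585382964671423634063562592061100177),10,0⟩]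

/-- Certificate tree. -/
def tnl4 : OutT := (A (A (O l) (A (O l) (A (O l) (A (O l) (A (O l) (O l)))))) (A (A (A (A (A (O l) (O l)) (A (O l) (O l))) (A (A (O l) (O l)) (O l))) (A (A (O l) (O l)) (A (O l) (O l)))) (A (A (O l) (O l)) (A (A (O l) (O l)) (A (O l) (A (O l) (A (O l) (A (O l) (O l)))))))))

theorem hnl4 (x : ℝ) (h0 : 0 ≤ x) (h1 : x ≤ 1) : evalIL lnl4 x 0 ≤ 0 :=
  uni_le 10 65536 lnl4 (by norm_num) (by norm_num) (by decide +kernel)
    (chkOut_sound (uniPb 10 65536 lnl4) tnl4 0 32768 0 32768 (by decide +kernel)) x h0 h1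

theorem apx4 (u : ℝ) (h0 : -(1748943 / 5000000 : ℝ) ≤ u) (h1 : u ≤ 2 * (1748943 / 5000000 : ℝ)) :
    |((1 + u)⁻¹) ^ 4 - evalZ Ax.p4 (3 * u) / Ax.D4| ≤ Ax.e4 * |u| ^ Ax.m4 := by
  have hu : 0 < 1 + u := by norm_num at h0 ⊢; linarith
  refine apx_of_S 4 2 _ (S4 u) _ u hu ?_ ?_ ?_
  · simp only [Ax, evalZ_cons, evalZ_nil, S4]
    push_cast
    ring
  · rcases le_total 0 u with hs | hs
    · have hx := hpu4 (u / (2 * (1748943 / 5000000 : ℝ))) (by positivity) (by rw [div_le_one (by norm_num)]; exact h1)
      have e : evalIL lpu4 (u / (2 * (1748943 / 5000000 : ℝ))) 0 = 20000000000000000000000000000000000000000000000000000000000000000000000 * (S4 u - Ax.e4 * (1 + u) ^ 4) := by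
        simp only [lpu4, evalIL, List.map_cons, List.map_nil, List.sum_cons, List.sum_nil, S4, Ax]
        push_cast
        ring
      rw [e] at hx
      have := cmul_nonpos (by norm_num) hx
      simp only [Ax] at this ⊢
      linarith
    · have hx := hnu4 (-u / (1748943 / 5000000 : ℝ)) (by apply div_nonneg <;> [linarith; norm_num]) (by rw [div_le_one (by norm_num)]; linarith)
      have e : evalIL lnu4 (-u / (1748943 / 5000000 : ℝ)) 0 = 20480000000000000000000000000000000000000000000000000000000000000000000000 * (S4 u - Ax.e4 * (1 + u) ^ 4) := by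
        simp only [lnu4, evalIL, List.map_cons, List.map_nil, List.sum_cons, List.sum_nil, S4, Ax]
        push_cast
        ring
      rw [e] at hx
      have := cmul_nonpos (by norm_num) hx
      simp only [Ax] at this ⊢
      linarith
  · rcases le_total 0 u with hs | hs
    · have hx := hpl4 (u / (2 * (1748943 / 5000000 : ℝ))) (by positivity) (by rw [div_le_one (by norm_num)]; exact h1)
      have e : evalIL lpl4 (u / (2 * (1748943 / 5000000 : ℝ))) 0 = 20000000000000000000000000000000000000000000000000000000000000000000000 * (-S4 u - Ax.e4 * (1 + u) ^ 4) := by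
        simp only [lpl4, evalIL, List.map_cons, List.map_nil, List.sum_cons, List.sum_nil, S4, Ax]
        push_cast
        ring
      rw [e] at hx
      have := cmul_nonpos (by norm_num) hx
      simp only [Ax] at this ⊢
      linarith
    · have hx := hnl4 (-u / (1748943 / 5000000 : ℝ)) (by apply div_nonneg <;> [linarith; norm_num]) (by rw [div_le_one (by norm_num)]; linarith)
      have e : evalIL lnl4 (-u / (1748943 / 5000000 : ℝ)) 0 = 20480000000000000000000000000000000000000000000000000000000000000000000000 * (-S4 u - Ax.e4 * (1 + u) ^ 4) := by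
        simp only [lnl4, evalIL, List.map_cons, List.map_nil, List.sum_cons, List.sum_nil, S4, Ax]
        push_cast
        ring
      rw [e] at hx
      have := cmul_nonpos (by norm_num) hx
      simp only [Ax] at this ⊢
      linarith

/-- The quotient polynomial for `j = 5`. -/
noncomputable def S5 (u : ℝ) : ℝ :=
  (963955 / 16777216 : ℝ) * u ^ 0 + (6833179 / 16777216 : ℝ) * u ^ 1 + (-78217299 / 16777216 : ℝ) * u ^ 2 + (-436052515 / 16777216 : ℝ) * u ^ 3 + (326037779 / 8388608 : ℝ) * u ^ 4 + (2274454589 / 8388608 : ℝ) * u ^ 5 + (-945753 / 8388608 : ℝ) * u ^ 6 + (-6936653647 / 8388608 : ℝ) * u ^ 7 + (-9304817681 / 16777216 : ℝ) * u ^ 8 + (11214219683 / 16777216 : ℝ) * u ^ 9 + (14643206973 / 16777216 : ℝ) * u ^ 10 + (4467494985 / 16777216 : ℝ) * u ^ 11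

/-- Certificate polynomial. -/
def lpu5 : List ITm := [⟨(-142514333128929138183593750000000000000000000000000000000000000000000000000),0,0⟩,⟨6217902842694014310836791992187500000000000000000000000000000000000000000000,1,0⟩,⟨(-205727286339773345794844627380371093750000000000000000000000000000000000000000),2,0⟩,⟨(-728120179351848085761427396631240844726562500000000000000000000000000000000000),3,0⟩,⟨739074702816990316580698153125271104812622070312500000000000000000000000000000,4,0⟩,⟨3633797290564181769281793463366661447247933197021484375000000000000000000000000,5,0⟩,⟨(-1057284086796200818645244789433661558715214726562500000000000000000000000000),6,0⟩,⟨(-5424998536296620201334202186082845279947119537529752015625000000000000000000000),7,0⟩,⟨(-2545441580733714203028441359861835675600840743129606361105253125000000000000000),8,0⟩,⟨2146149505835360327539766013540883608594818692058594974486560386336250000000000,9,0⟩,⟨1960481556337680780377963269778692636700259300667902530818694976885794638500000,10,0⟩,⟨418433339568926247789614775697655398686306094961820091131020274902947159563579,11,0⟩]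

/-- Certificate tree. -/
def tpu5 : OutT := (A (A (A (A (A (O l) (O l)) (A (O l) (O l))) (A (O l) (O l))) (A (O l) (A (O l) (O l)))) (A (A (A (A (O l) (O l)) (A (O l) (A (O l) (O l)))) (A (A (A (O l) (A (O l) (O l))) (A (A (O l) (O l)) (A (A (O l) (O l)) (A (O l) (O l))))) (A (A (A (A (O l) (O l)) (O l)) (A (O l) (O l))) (A (A (O l) (O l)) (O l))))) (A (A (A (A (O l) (O l)) (A (O l) (O l))) (A (O l) (O l))) (A (A (O l) (O l)) (A (O l) (A (O l) (A (O l) (A (O l) (A (O l) (O l))))))))))

theorem hpu5 (x : ℝ) (h0 : 0 ≤ x) (h1 : x ≤ 1) : evalIL lpu5 x 0 ≤ 0 :=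
  uni_le 11 65536 lpu5 (by norm_num) (by norm_num) (by decide +kernel)
    (chkOut_sound (uniPb 11 65536 lpu5) tpu5 0 32768 0 32768 (by decide +kernel)) x h0 h1

/-- Certificate polynomial. -/
def lpl5 : List ITm := [⟨(-9335505589842796325683593750000000000000000000000000000000000000000000000000),0,0⟩,⟨(-39370936038977891206741333007812500000000000000000000000000000000000000000000),1,0⟩,⟨159341074069846695786881446838378906250000000000000000000000000000000000000000,2,0⟩,⟨695669442853447155743476537084579467773437500000000000000000000000000000000000,3,0⟩,⟨(-750425600505734880130375159154894422531127929687500000000000000000000000000000),4,0⟩,⟨(-3635385456408697447938454483523178846780777740478515625000000000000000000000000),5,0⟩,⟨1057284086796200818645244789433661558715214726562500000000000000000000000000,6,0⟩,⟨5424998536296620201334202186082845279947119537529752015625000000000000000000000,7,0⟩,⟨2545441580733714203028441359861835675600840743129606361105253125000000000000000,8,0⟩,⟨(-2146149505835360327539766013540883608594818692058594974486560386336250000000000),9,0⟩,⟨(-1960481556337680780377963269778692636700259300667902530818694976885794638500000),10,0⟩,⟨(-418433339568926247789614775697655398686306094961820091131020274902947159563579),11,0⟩]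

/-- Certificate tree. -/
def tpl5 : OutT := (A (A (A (O l) (O l)) (A (A (A (O l) (O l)) (A (A (O l) (O l)) (A (O l) (A (O l) (O l))))) (A (A (A (O l) (O l)) (O l)) (A (O l) (O l))))) (A (A (A (A (O l) (O l)) (O l)) (A (O l) (O l))) (A (A (A (O l) (O l)) (A (A (O l) (O l)) (A (O l) (O l)))) (A (A (A (A (O l) (O l)) (A (A (O l) (O l)) (A (O l) (O l)))) (A (A (A (O l) (O l)) (A (O l) (O l))) (A (A (O l) (O l)) (A (O l) (O l))))) (A (A (A (O l) (O l)) (A (O l) (O l))) (A (O l) (O l)))))))

theorem hpl5 (x : ℝ) (h0 : 0 ≤ x) (h1 : x ≤ 1) : evalIL lpl5 x 0 ≤ 0 :=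
  uni_le 11 65536 lpl5 (by norm_num) (by norm_num) (by decide +kernel)
    (chkOut_sound (uniPb 11 65536 lpl5) tpl5 0 32768 0 32768 (by decide +kernel)) x h0 h1

/-- Certificate polynomial. -/
def lnu5 : List ITm := [⟨(-291869354248046875000000000000000000000000000000000000000000000000000000000000),0,0⟩,⟨(-6367132510918670654296875000000000000000000000000000000000000000000000000000000),1,0⟩,⟨(-105332370605963953046960449218750000000000000000000000000000000000000000000000000),2,0⟩,⟨186398765914073109954925413537597656250000000000000000000000000000000000000000000,3,0⟩,⟨94601561960574760522329363600034701416015625000000000000000000000000000000000000,4,0⟩,⟨(-232563026596107633234034781655466332623867724609375000000000000000000000000000000),5,0⟩,⟨(-33833090777478426196647833261877169878886871250000000000000000000000000000000),6,0⟩,⟨86799976580745923221347234977325524479153912600476032250000000000000000000000000,7,0⟩,⟨(-20363532645869713624227530878894685404806725945036850888842025000000000000000000),8,0⟩,⟨(-8584598023341441310159064054163534434379274768234379897946241545345000000000000),9,0⟩,⟨3920963112675361560755926539557385273400518601335805061637389953771589277000000,10,0⟩,⟨(-418433339568926247789614775697655398686306094961820091131020274902947159563579),11,0⟩]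

/-- Certificate tree. -/
def tnu5 : OutT := (A (A (A (A (O l) (O l)) (O l)) (A (O l) (O l))) (A (A (O l) (A (O l) (A (O l) (O l)))) (A (A (A (O l) (A (O l) (O l))) (A (A (O l) (O l)) (A (A (O l) (O l)) (A (O l) (A (O l) (O l)))))) (A (A (A (A (A (O l) (O l)) (A (O l) (O l))) (A (A (O l) (O l)) (A (O l) (O l)))) (A (A (O l) (O l)) (A (O l) (O l)))) (A (A (O l) (O l)) (A (O l) (O l)))))))

theorem hnu5 (x : ℝ) (h0 : 0 ≤ x) (h1 : x ≤ 1) : evalIL lnu5 x 0 ≤ 0 :=
  uni_le 11 65536 lnu5 (by norm_num) (by norm_num) (by decide +kernel)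
    (chkOut_sound (uniPb 11 65536 lnu5) tnu5 0 32768 0 32768 (by decide +kernel)) x h0 h1

/-- Certificate polynomial. -/
def lnl5 : List ITm := [⟨(-19119115447998046875000000000000000000000000000000000000000000000000000000000000),0,0⟩,⟨40315838503913360595703125000000000000000000000000000000000000000000000000000000,1,0⟩,⟨81582629923761508242883300781250000000000000000000000000000000000000000000000000,2,0⟩,⟨(-178091377370482471870329993493652343750000000000000000000000000000000000000000000),3,0⟩,⟨(-96054476864734064656688020371826486083984375000000000000000000000000000000000000),4,0⟩,⟨232664669210156636668061086945483446193969775390625000000000000000000000000000000,5,0⟩,⟨33833090777478426196647833261877169878886871250000000000000000000000000000000,6,0⟩,⟨(-86799976580745923221347234977325524479153912600476032250000000000000000000000000),7,0⟩,⟨20363532645869713624227530878894685404806725945036850888842025000000000000000000,8,0⟩,⟨8584598023341441310159064054163534434379274768234379897946241545345000000000000,9,0⟩,⟨(-3920963112675361560755926539557385273400518601335805061637389953771589277000000),10,0⟩,⟨418433339568926247789614775697655398686306094961820091131020274902947159563579,11,0⟩]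

/-- Certificate tree. -/
def tnl5 : OutT := (A (A (O l) (A (O l) (A (O l) (A (O l) (A (O l) (O l)))))) (A (A (A (A (A (O l) (O l)) (A (O l) (O l))) (A (A (O l) (O l)) (O l))) (A (A (O l) (O l)) (A (O l) (O l)))) (A (A (A (O l) (O l)) (A (O l) (O l))) (A (A (O l) (O l)) (A (A (O l) (O l)) (A (O l) (A (O l) (A (O l) (A (O l) (O l))))))))))

theorem hnl5 (x : ℝ) (h0 : 0 ≤ x) (h1 : x ≤ 1) : evalIL lnl5 x 0 ≤ 0 :=
  uni_le 11 65536 lnl5 (by norm_num) (by norm_num) (by decide +kernel)
    (chkOut_sound (uniPb 11 65536 lnl5) tnl5 0 32768 0 32768 (by decide +kernel)) x h0 h1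

theorem apx5 (u : ℝ) (h0 : -(1748943 / 5000000 : ℝ) ≤ u) (h1 : u ≤ 2 * (1748943 / 5000000 : ℝ)) :
    |((1 + u)⁻¹) ^ 5 - evalZ Ax.p5 (3 * u) / Ax.D5| ≤ Ax.e5 * |u| ^ Ax.m5 := by
  have hu : 0 < 1 + u := by norm_num at h0 ⊢; linarith
  refine apx_of_S 5 2 _ (S5 u) _ u hu ?_ ?_ ?_
  · simp only [Ax, evalZ_cons, evalZ_nil, S5]
    push_cast
    ring
  · rcases le_total 0 u with hs | hs
    · have hx := hpu5 (u / (2 * (1748943 / 5000000 : ℝ))) (by positivity) (by rw [div_le_one (by norm_num)]; exact h1)
      have e : evalIL lpu5 (u / (2 * (1748943 / 5000000 : ℝ))) 0 = 80000000000000000000000000000000000000000000000000000000000000000000000000000 * (S5 u - Ax.e5 * (1 + u) ^ 5) := by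
        simp only [lpu5, evalIL, List.map_cons, List.map_nil, List.sum_cons, List.sum_nil, S5, Ax]
        push_cast
        ring
      rw [e] at hx
      have := cmul_nonpos (by norm_num) hx
      simp only [Ax] at this ⊢
      linarith
    · have hx := hnu5 (-u / (1748943 / 5000000 : ℝ)) (by apply div_nonneg <;> [linarith; norm_num]) (by rw [div_le_one (by norm_num)]; linarith)
      have e : evalIL lnu5 (-u / (1748943 / 5000000 : ℝ)) 0 = 163840000000000000000000000000000000000000000000000000000000000000000000000000000 * (S5 u - Ax.e5 * (1 + u) ^ 5) := by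
        simp only [lnu5, evalIL, List.map_cons, List.map_nil, List.sum_cons, List.sum_nil, S5, Ax]
        push_cast
        ring
      rw [e] at hx
      have := cmul_nonpos (by norm_num) hx
      simp only [Ax] at this ⊢
      linarith
  · rcases le_total 0 u with hs | hs
    · have hx := hpl5 (u / (2 * (1748943 / 5000000 : ℝ))) (by positivity) (by rw [div_le_one (by norm_num)]; exact h1)
      have e : evalIL lpl5 (u / (2 * (1748943 / 5000000 : ℝ))) 0 = 80000000000000000000000000000000000000000000000000000000000000000000000000000 * (-S5 u - Ax.e5 * (1 + u) ^ 5) := by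
        simp only [lpl5, evalIL, List.map_cons, List.map_nil, List.sum_cons, List.sum_nil, S5, Ax]
        push_cast
        ring
      rw [e] at hx
      have := cmul_nonpos (by norm_num) hx
      simp only [Ax] at this ⊢
      linarith
    · have hx := hnl5 (-u / (1748943 / 5000000 : ℝ)) (by apply div_nonneg <;> [linarith; norm_num]) (by rw [div_le_one (by norm_num)]; linarith)
      have e : evalIL lnl5 (-u / (1748943 / 5000000 : ℝ)) 0 = 163840000000000000000000000000000000000000000000000000000000000000000000000000000 * (-S5 u - Ax.e5 * (1 + u) ^ 5) := by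
        simp only [lnl5, evalIL, List.map_cons, List.map_nil, List.sum_cons, List.sum_nil, S5, Ax]
        push_cast
        ring
      rw [e] at hx
      have := cmul_nonpos (by norm_num) hx
      simp only [Ax] at this ⊢
      linarith

theorem hAx : Ax.OK (-(1748943 / 5000000 : ℝ)) (2 * (1748943 / 5000000 : ℝ)) where
  e10 := by simp only [Ax]; norm_num
  e20 := by simp only [Ax]; norm_num
  e30 := by simp only [Ax]; norm_num
  e40 := by simp only [Ax]; norm_num
  e50 := by simp only [Ax]; norm_num
  h1 := fun u a b => by simpa using apx1 u a b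
  h2 := apx2
  h3 := apx3
  h4 := apx4
  h5 := apx5

end Vale.Agent.P154.D5.K2
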