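import Vale.Agent.P154.D5.K2.Data
import Vale.Agent.P154.Check2

namespace Vale.Agent.P154.D5.K2

open Cert

/-- Chart (0, 0). -/
def P00 : Pb := chartPb false false Nd w G []

/-- Chart (0, 1). -/
def P01 : Pb := chartPb false true Nd w G []

/-- Chart (1, 0). -/
def P10 : Pb := chartPb true false Nd w G []

/-- Chart (1, 1). -/
def P11 : Pb := chartPb true true Nd w G []

/-- The offset. -/
def KK : ℕ := 238954404268933865125126537965647370348186772435315621289825771761405069515984212194479937258429577313733767604974644713064293001386859963477865690977385256586189347544846179894960090613343571873484581297429015320656710070604819135113469266235546964237890007694823296373534385169983015617629084799101278271338071223315759934627648900036785340416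

end Vale.Agent.P154.D5.K2
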