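import Vale.Agent.P154.D5.K2.Charts

set_option maxRecDepth 100000

namespace Vale.Agent.P154.D5.K2

open Cert InT OutT

/-- Certificate tree. -/
def tr00_r11 : OutT :=
(B (A s s) (A (B (A (B s (A (B s (A s s)) s)) (B s (A s s))) (A (B (A (B (A (O (c (c l l) (c (c l l) (d (c k k) (c l (d (d k (d l l)) (d l l))))))) (O (c (c l l) (c (c l l) (d (c k k) (c l (d (c k k) (d (c l l) (c l l))))))))) (A (O (c (c l l) (c l (d (d k (c k k)) (c l (d (d k l) (c l l))))))) (O (c l (c l (c (c l l) (d k (d (d k l) (d l l))))))))) (B (A s s) (A (O (c l (c l (c (d k l) (d k (d (d k (d (c k k) l)) (d (c l l) (c l l)))))))) (O (c l (c l (c (d k l) (d k (d (c k k) (c l (d (d k l) l))))))))))) (A (B (A (O (c l (c l (d (d k l) (c l (d l l)))))) (O (c l (c l (d (d k (c k k)) (c l (d l (c l l)))))))) (A (O (c l (c l (d l (c l (d l l)))))) (O (c l (c l (d (c k k) (c l (d l l)))))))) (B (A (O (c l (c l (d (d k (c k k)) (c l (d (d k l) (c l l))))))) (O (c l (c l (c l (d k (d (d k l) (d l (c l l)))))))))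 (A (O (c l (c l (d (c k k) (c l (d l l)))))) (O (c l (c l (d (c k k) (c l (d l (c l l))))))))))) (B (A (B s (A (B s (O (c l (c l (d (d k (c k k)) (c l (d (d k l) (c l l)))))))) s)) (B s (A s s))) (A (B (A (O (c l (c l (c l (d k (d (d k (d (c k k) (c k k))) (d (d l l) (c l (c l l))))))))) (B (O (c l (c l (d (d k (c k k)) (c l (d (c k k) (c l l))))))) (O (c l (c l (d (c k k) (d (c l l) (c l l)))))))) (A (O (c l (c l (d (d k l) (c l (d (c k k) (d l (c l l)))))))) (B (O (c l (c l (d l (c l (d l l)))))) (O (c l (c l (d l (c l (c l l))))))))) (B (A (B (O (c l (c l (d (d k (c k k)) (c l (d (d k l) (d l l))))))) (O (c l (c l (d (c k k) (c l (d l l))))))) (B s (O (c l (c l (d (d k l) (c l (d (c k k) (d l l))))))))) (A (B (O (c l (c l (d l (c l (d l l)))))) (O (c l (c l (d l (c l (d l l))))))) (B (O (c l (c l (d l (d l (c l l)))))) (O (c l (c l (d l (c l (d l l))))))))))))) (B (A s s) (A (B (A (B s (A s s)) s) (A (B (A (B s (O (c l (c l (d (d k (c k k)) (c l (d (d k l) (d l (c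 l l))))))))) (B s (A s s))) (A (B (O (c l (c l (d l (c l (d l (d l l))))))) (O (c l (c l (d l (c l (d l l))))))) (B (A (O (c l (c l (c l l)))) (O (c l (c l (c l l))))) (O (c l (c l (d l (c l (d l (d l l)))))))))) (B (A (B s (A s s)) s) (A (B (A (O (c l (c l (c l l)))) (O (c l (c l (c l l))))) (A (O (c l (c l l))) (O (c l (c l l))))) (B (A (O (c l (c l (c l l)))) (O (c l (c l (c l l))))) (A (O (c l (c l l))) (O (c l (c l l))))))))) (B (A s s) (A (B (A s s) (A (B (A s s) (A (O (c l (c l l))) (O (c l (c l l))))) (B (A s s) (A (O (c l (c l l))) (O (c l (c l l))))))) (B (A s s) (A (B (A s s) (A (O (c l (c l l))) (O (c l (c l l))))) (B (A s s) (A (O (c l (c l l))) (O (c l (c l l)))))))))))))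

theorem s00_r11 : Sound P00 49152 8192 0 32768 :=
  chkOut2_sound P00 KK tr00_r11 49152 8192 0 32768 (by decide +kernel)

end Vale.Agent.P154.D5.K2
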